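import Vale.Agent.Lib.P237.Slice

/-!
# P227 (logarithmic Brunn-Minkowski conjecture): definitions

`ℝ^ι = ι → ℝ` with Lebesgue measure and the standard inner product `∑ i, x i * u i`.
-/

namespace P227

open MeasureTheory

variable {ι κ : Type*} [Fintype ι] [Fintype κ]

/-- the standard inner product -/
def ip (x u : ι → ℝ) : ℝ := ∑ i, x i * u i

/-- the support function `h_K(u) = sup_{x ∈ K} ⟨x,u⟩` -/
noncomputable def supp (K : Set (ι → ℝ)) (u : ι → ℝ) : ℝ := sSup ((fun x => ip x u) '' K)

/-- the logarithmic combination of `K` and `L`: the Wulff body of `h_K^(1-λ) h_L^λ` on the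
Euclidean unit sphere -/
def logComb (lam : ℝ) (K L : Set (ι → ℝ)) : Set (ι → ℝ) :=
  {x | ∀ u : ι → ℝ, ∑ i, u i ^ 2 = 1 → ip x u ≤ supp K u ^ (1 - lam) * supp L u ^ lam}

/-- origin-symmetric convex bodies -/
structure IsSymBody (K : Set (ι → ℝ)) : Prop where
  compact : IsCompact K
  convex : Convex ℝ K
  interior : (interior K).Nonempty
  symm : ∀ x ∈ K, -x ∈ K

/-- the logarithmic Brunn-Minkowski inequality for the pair `K, L` and the parameter `λ` -/
def LBM (lam : ℝ) (K L : Set (ι → ℝ)) : Prop :=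
  P237.vol K ^ (1 - lam) * P237.vol L ^ lam ≤ P237.vol (logComb lam K L)

end P227
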