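import Vale.Agent.Lib.P227.Main
import Vale.Agent.Lib.P237.Line

/-! # P227: the one dimensional case, cylinders -/

namespace P227
open MeasureTheory
variable {ι : Type*} [Fintype ι]

theorem isSymBody_seg1 {a : ℝ} (ha : 0 < a) : IsSymBody (P237.seg1 (-a) a) := by
  refine ⟨P237.isCompact_seg1 _ _, P237.convex_seg1 _ _, ⟨0, ?_⟩, ?_⟩
  · rw [mem_interior]
    refine ⟨{x | -a < x 0 ∧ x 0 < a}, ?_, ?_, ?_⟩
    · rintro x ⟨h1, h2⟩
      exact ⟨h1.le, h2.le⟩
    · have c : Continuous (fun x : Fin 1 → ℝ => x 0) := continuous_apply 0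
      exact (isOpen_lt continuous_const c).inter (isOpen_lt c continuous_const)
    · exact ⟨by simpa using ha, by simpa using ha⟩
  · rintro x ⟨h1, h2⟩
    exact ⟨by simpa using h2, by simpa using (neg_le.2 h1)⟩

theorem supp_seg1 {a : ℝ} (ha : 0 < a) (u : Fin 1 → ℝ) :
    supp (P237.seg1 (-a) a) u = a * |u 0| := by
  apply le_antisymm
  · apply csSup_le
    · exact ⟨_, ⟨0, zero_mem (isSymBody_seg1 ha), rfl⟩⟩
    · rintro _ ⟨x, ⟨h1, h2⟩, rfl⟩
      simp only [ip, Fin.sum_univ_one]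
      have hx : |x 0| ≤ a := abs_le.2 ⟨h1, h2⟩
      calc x 0 * u 0 ≤ |x 0 * u 0| := le_abs_self _
        _ = |x 0| * |u 0| := abs_mul _ _
        _ ≤ a * |u 0| := mul_le_mul_of_nonneg_right hx (abs_nonneg _)
  · rcases le_total 0 (u 0) with h | h
    · have := ip_le_supp (isSymBody_seg1 ha).compact u (x := fun _ => a)
        ⟨by simp; linarith, le_refl _⟩
      simpa [ip, abs_of_nonneg h] using this
    · have := ip_le_supp (isSymBody_seg1 ha).compact u (x := fun _ => -a)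
        ⟨le_refl _, by simp; linarith⟩
      simpa [ip, abs_of_nonpos h] using this

theorem logComb_seg1 {a b : ℝ} (ha : 0 < a) (hb : 0 < b) (lam : ℝ) :
    logComb lam (P237.seg1 (-a) a) (P237.seg1 (-b) b)
      = P237.seg1 (-(a ^ (1 - lam) * b ^ lam)) (a ^ (1 - lam) * b ^ lam) := by
  ext x
  simp only [logComb, Set.mem_ofPred_eq, supp_seg1 ha, supp_seg1 hb, Fin.sum_univ_one, ip]
  show _ ↔ (-(a ^ (1 - lam) * b ^ lam) ≤ x 0 ∧ x 0 ≤ a ^ (1 - lam) * b ^ lam)
  constructor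
  · intro h
    have h1 := h (fun _ => 1) (by simp)
    have h2 := h (fun _ => -1) (by simp)
    simp at h1 h2
    exact ⟨by linarith, h1⟩
  · rintro ⟨h1, h2⟩ u hu
    have hu' : |u 0| = 1 := by
      have : |u 0| ^ 2 = 1 := by rw [sq_abs]; exact hu
      nlinarith [abs_nonneg (u 0)]
    rw [hu', mul_one, mul_one]
    rcases (abs_eq (by norm_num : (0 : ℝ) ≤ 1)).1 hu' with h | h
    · rw [h]; linarith
    · rw [h]; linarith

/-- the one dimensional case (with equality) -/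
theorem lbm_seg1 {a b : ℝ} (ha : 0 < a) (hb : 0 < b) (lam : ℝ) :
    LBM lam (P237.seg1 (-a) a) (P237.seg1 (-b) b) := by
  unfold LBM
  have hc : 0 < a ^ (1 - lam) * b ^ lam :=
    mul_pos (Real.rpow_pos_of_pos ha _) (Real.rpow_pos_of_pos hb _)
  rw [logComb_seg1 ha hb, P237.vol_seg1 (by linarith), P237.vol_seg1 (by linarith),
    P237.vol_seg1 (by linarith)]
  have e1 : a - -a = 2 * a := by ring
  have e2 : b - -b = 2 * b := by ring
  rw [e1, e2, Real.mul_rpow (by norm_num) ha.le, Real.mul_rpow (by norm_num) hb.le]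
  have e3 : (2 : ℝ) ^ (1 - lam) * 2 ^ lam = 2 := by
    rw [← Real.rpow_add (by norm_num)]
    simp
  apply le_of_eq
  calc (2 : ℝ) ^ (1 - lam) * a ^ (1 - lam) * (2 ^ lam * b ^ lam)
      = ((2 : ℝ) ^ (1 - lam) * 2 ^ lam) * (a ^ (1 - lam) * b ^ lam) := by ring
    _ = _ := by rw [e3]; ring

/-- cylinders -/
theorem lbm_cylinder {K L : Set (ι → ℝ)} (hK : IsSymBody K) (hL : IsSymBody L) {lam a b : ℝ}
    (h0 : 0 ≤ lam) (h1 : lam ≤ 1) (ha : 0 < a) (hb : 0 < b) (H : LBM lam K L) :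
    LBM lam (P237.prod K (P237.seg1 (-a) a)) (P237.prod L (P237.seg1 (-b) b)) :=
  lbm_prod hK hL (isSymBody_seg1 ha) (isSymBody_seg1 hb) h0 h1 H (lbm_seg1 ha hb lam)

end P227
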