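import Vale.Agent.Lib.P227.Supp

/-! # P227 units H, I, B, V, M -/

namespace P227
open MeasureTheory
variable {ι κ : Type*} [Fintype ι] [Fintype κ]

/-- H: Hoelder for two terms.  (`Real.inner_le_Lp_mul_Lq`-type, or: if `a₁+a₂ = 0` or `b₁+b₂ = 0`
trivial; otherwise divide and use weighted AM-GM `Real.geom_mean_le_arith_mean2_weighted` for each
term.) -/
theorem holder2 {a₁ a₂ b₁ b₂ lam : ℝ} (ha₁ : 0 ≤ a₁) (ha₂ : 0 ≤ a₂) (hb₁ : 0 ≤ b₁) (hb₂ : 0 ≤ b₂)
    (h0 : 0 ≤ lam) (h1 : lam ≤ 1) :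
    a₁ ^ (1 - lam) * b₁ ^ lam + a₂ ^ (1 - lam) * b₂ ^ lam
      ≤ (a₁ + a₂) ^ (1 - lam) * (b₁ + b₂) ^ lam := by
  have h1' : 0 ≤ 1 - lam := by linarith
  rcases eq_or_lt_of_le h0 with hl0 | hl0
  · subst hl0
    simp
  rcases eq_or_lt_of_le h1 with hl1 | hl1
  · subst hl1
    simp
  have h1'' : 0 < 1 - lam := by linarith
  set A := a₁ + a₂ with hA
  set B := b₁ + b₂ with hB
  have hA0 : 0 ≤ A := by positivity
  have hB0 : 0 ≤ B := by positivity
  rcases eq_or_lt_of_le hA0 with hAz | hAp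
  · have e1 : a₁ = 0 := by linarith
    have e2 : a₂ = 0 := by linarith
    rw [e1, e2, ← hAz, Real.zero_rpow h1''.ne']
    simp
  rcases eq_or_lt_of_le hB0 with hBz | hBp
  · have e1 : b₁ = 0 := by linarith
    have e2 : b₂ = 0 := by linarith
    rw [e1, e2, ← hBz, Real.zero_rpow hl0.ne']
    simp
  have key : ∀ a b : ℝ, 0 ≤ a → 0 ≤ b →
      a ^ (1 - lam) * b ^ lam ≤ A ^ (1 - lam) * B ^ lam * ((1 - lam) * (a / A) + lam * (b / B)) := by
    intro a b ha hb
    have hg := Real.geom_mean_le_arith_mean2_weighted h1' h0 (div_nonneg ha hA0)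
      (div_nonneg hb hB0) (by ring)
    have e : a ^ (1 - lam) * b ^ lam
        = A ^ (1 - lam) * B ^ lam * ((a / A) ^ (1 - lam) * (b / B) ^ lam) := by
      rw [Real.div_rpow ha hA0, Real.div_rpow hb hB0]
      have p1 : A ^ (1 - lam) ≠ 0 := (Real.rpow_pos_of_pos hAp _).ne'
      have p2 : B ^ lam ≠ 0 := (Real.rpow_pos_of_pos hBp _).ne'
      field_simp
    rw [e]
    exact mul_le_mul_of_nonneg_left hg (by positivity)
  have k1 := key a₁ b₁ ha₁ hb₁
  have k2 := key a₂ b₂ ha₂ hb₂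
  have hs : ((1 - lam) * (a₁ / A) + lam * (b₁ / B)) + ((1 - lam) * (a₂ / A) + lam * (b₂ / B)) = 1 := by
    have : a₁ / A + a₂ / A = 1 := by rw [← add_div, ← hA]; exact div_self hAp.ne'
    have : b₁ / B + b₂ / B = 1 := by rw [← add_div, ← hB]; exact div_self hBp.ne'
    nlinarith
  calc a₁ ^ (1 - lam) * b₁ ^ lam + a₂ ^ (1 - lam) * b₂ ^ lam
      ≤ A ^ (1 - lam) * B ^ lam * ((1 - lam) * (a₁ / A) + lam * (b₁ / B))
        + A ^ (1 - lam) * B ^ lam * ((1 - lam) * (a₂ / A) + lam * (b₂ / B)) := add_le_add k1 k2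
    _ = A ^ (1 - lam) * B ^ lam := by rw [← mul_add, hs, mul_one]

/-- I: the product of two origin-symmetric convex bodies is one
(`P237.isCompact_prod`, `P237.convex_prod`; interior: if `ball x r ⊆ K`, `ball y r ⊆ L` (sup norm
on pi types) then `ball (Sum.elim x y) r ⊆ prod K L`). -/
theorem isSymBody_prod {K : Set (ι → ℝ)} {L : Set (κ → ℝ)} (hK : IsSymBody K) (hL : IsSymBody L) :
    IsSymBody (P237.prod K L) := by
  refine ⟨P237.isCompact_prod hK.compact hL.compact, P237.convex_prod hK.convex hL.convex, ?_, ?_⟩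
  · obtain ⟨x, hx⟩ := hK.interior
    obtain ⟨y, hy⟩ := hL.interior
    refine ⟨Sum.elim x y, ?_⟩
    rw [mem_interior] at hx hy ⊢
    obtain ⟨U, hU, hUo, hxU⟩ := hx
    obtain ⟨V, hV, hVo, hyV⟩ := hy
    refine ⟨{z | (fun i => z (Sum.inl i)) ∈ U ∧ (fun j => z (Sum.inr j)) ∈ V}, ?_, ?_, ?_⟩
    · rintro z ⟨h1, h2⟩
      exact ⟨hU h1, hV h2⟩
    · have c1 : Continuous (fun z : ι ⊕ κ → ℝ => (fun i => z (Sum.inl i))) := by fun_prop
      have c2 : Continuous (fun z : ι ⊕ κ → ℝ => (fun j => z (Sum.inr j))) := by fun_prop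
      exact (hUo.preimage c1).inter (hVo.preimage c2)
    · exact ⟨hxU, hyV⟩
  · rintro z ⟨h1, h2⟩
    exact ⟨hK.symm _ h1, hL.symm _ h2⟩

/-- B: the inclusion.  `Fintype.sum_sum_type`, `logComb_all` twice, `supp_prod`, `holder2`. -/
theorem prod_logComb_subset {K₁ L₁ : Set (ι → ℝ)} {K₂ L₂ : Set (κ → ℝ)} (hK₁ : IsSymBody K₁)
    (hL₁ : IsSymBody L₁) (hK₂ : IsSymBody K₂) (hL₂ : IsSymBody L₂) {lam : ℝ} (h0 : 0 ≤ lam)
    (h1 : lam ≤ 1) :
    P237.prod (logComb lam K₁ L₁) (logComb lam K₂ L₂)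
      ⊆ logComb lam (P237.prod K₁ K₂) (P237.prod L₁ L₂) := by
  rintro z ⟨hz1, hz2⟩ u -
  have e : ip z u = ip (fun i => z (Sum.inl i)) (fun i => u (Sum.inl i))
      + ip (fun j => z (Sum.inr j)) (fun j => u (Sum.inr j)) := by
    unfold ip
    rw [Fintype.sum_sum_type]
  rw [e, supp_prod hK₁.compact hK₂.compact ⟨0, zero_mem hK₁⟩ ⟨0, zero_mem hK₂⟩,
    supp_prod hL₁.compact hL₂.compact ⟨0, zero_mem hL₁⟩ ⟨0, zero_mem hL₂⟩]
  refine le_trans (add_le_add (logComb_all hK₁ hL₁ hz1 _) (logComb_all hK₂ hL₂ hz2 _)) ?_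
  exact holder2 (supp_nonneg hK₁ _) (supp_nonneg hK₂ _) (supp_nonneg hL₁ _) (supp_nonneg hL₂ _) h0 h1

/-- V: `logComb` lies in a box (test `u = ± Pi.single i 1`), so it has finite volume. -/
theorem volume_logComb_lt_top (lam : ℝ) (K L : Set (ι → ℝ)) : volume (logComb lam K L) < ⊤ := by
  classical
  have hb : Bornology.IsBounded (logComb lam K L) := by
    set a : ι → ℝ := fun i => supp K (Pi.single i 1) ^ (1 - lam) * supp L (Pi.single i 1) ^ lam
    set b : ι → ℝ := fun i => supp K (-Pi.single i 1) ^ (1 - lam) * supp L (-Pi.single i 1) ^ lam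
    apply (Metric.isBounded_Icc (-b) a).subset
    intro x hx
    have hn : ∀ i : ι, ∑ j, (Pi.single i (1:ℝ) : ι → ℝ) j ^ 2 = 1 := by
      intro i
      rw [Finset.sum_eq_single i]
      · simp
      · intro j _ hj
        simp [Pi.single_eq_of_ne hj]
      · simp
    have hn' : ∀ i : ι, ∑ j, (-Pi.single i (1:ℝ) : ι → ℝ) j ^ 2 = 1 := by
      intro i
      simpa using hn i
    constructor
    · intro i
      have := hx _ (hn' i)
      have h2 : ip x (-Pi.single i (1:ℝ)) = - x i := by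
        unfold ip
        rw [Finset.sum_eq_single i]
        · simp
        · intro j _ hj
          simp [Pi.single_eq_of_ne hj]
        · simp
      rw [h2] at this
      simp only [Pi.neg_apply, b]
      linarith
    · intro i
      have := hx _ (hn i)
      have h2 : ip x (Pi.single i (1:ℝ)) = x i := by
        unfold ip
        rw [Finset.sum_eq_single i]
        · simp
        · intro j _ hj
          simp [Pi.single_eq_of_ne hj]
        · simp
      rw [h2] at this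
      exact this
  exact hb.measure_lt_top

/-- M: closure of the logarithmic Brunn-Minkowski inequality under Cartesian products. -/
theorem lbm_prod {K₁ L₁ : Set (ι → ℝ)} {K₂ L₂ : Set (κ → ℝ)} (hK₁ : IsSymBody K₁)
    (hL₁ : IsSymBody L₁) (hK₂ : IsSymBody K₂) (hL₂ : IsSymBody L₂) {lam : ℝ} (h0 : 0 ≤ lam)
    (h1 : lam ≤ 1) (H₁ : LBM lam K₁ L₁) (H₂ : LBM lam K₂ L₂) :
    LBM lam (P237.prod K₁ K₂) (P237.prod L₁ L₂) := by
  unfold LBM at *
  have hsub := prod_logComb_subset hK₁ hL₁ hK₂ hL₂ h0 h1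
  have hle : P237.vol (P237.prod (logComb lam K₁ L₁) (logComb lam K₂ L₂))
      ≤ P237.vol (logComb lam (P237.prod K₁ K₂) (P237.prod L₁ L₂)) :=
    ENNReal.toReal_mono (volume_logComb_lt_top _ _ _).ne (measure_mono hsub)
  rw [P237.vol_prod] at hle
  rw [P237.vol_prod, P237.vol_prod]
  have n1 : 0 ≤ P237.vol K₁ := ENNReal.toReal_nonneg
  have n2 : 0 ≤ P237.vol K₂ := ENNReal.toReal_nonneg
  have n3 : 0 ≤ P237.vol L₁ := ENNReal.toReal_nonneg
  have n4 : 0 ≤ P237.vol L₂ := ENNReal.toReal_nonneg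
  rw [Real.mul_rpow n1 n2, Real.mul_rpow n3 n4]
  calc P237.vol K₁ ^ (1 - lam) * P237.vol K₂ ^ (1 - lam) * (P237.vol L₁ ^ lam * P237.vol L₂ ^ lam)
      = (P237.vol K₁ ^ (1 - lam) * P237.vol L₁ ^ lam)
          * (P237.vol K₂ ^ (1 - lam) * P237.vol L₂ ^ lam) := by ring
    _ ≤ P237.vol (logComb lam K₁ L₁) * P237.vol (logComb lam K₂ L₂) := by
        apply mul_le_mul H₁ H₂ (by positivity) ENNReal.toReal_nonneg
    _ ≤ _ := hle

end P227
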