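import Vale.Agent.Lib.P227.Main

/-!
# P227: the pair `K`, `T K` for a body with one block reflection symmetry

`ℝ^(ι ⊕ κ) = ℝ^ι × ℝ^κ`, `K` origin-symmetric and invariant under `(x,y) ↦ (-x,y)`,
`T (x,y) = (s x, t y)` with `s, t > 0`.  Then `T^λ K ⊆ (1-λ) K +₀ λ T K`, and the logarithmic
Brunn-Minkowski inequality holds for the pair `K`, `T K`.
-/

namespace P227
open MeasureTheory
variable {ι κ : Type*} [Fintype ι] [Fintype κ]

/-- the map `(x,y) ↦ (s x, t y)` -/
def str (s t : ℝ) (z : ι ⊕ κ → ℝ) : ι ⊕ κ → ℝ :=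
  Sum.elim (fun i => s * z (Sum.inl i)) (fun j => t * z (Sum.inr j))

/-- T1: `Fintype.sum_sum_type`, `Finset.mul_sum`. -/
theorem ip_str (s t : ℝ) (z u : ι ⊕ κ → ℝ) :
    ip (str s t z) u = s * ip (fun i => z (Sum.inl i)) (fun i => u (Sum.inl i))
      + t * ip (fun j => z (Sum.inr j)) (fun j => u (Sum.inr j)) := by
  unfold ip str
  rw [Fintype.sum_sum_type, Finset.mul_sum, Finset.mul_sum]
  simp only [Sum.elim_inl, Sum.elim_inr, mul_assoc]

/-- T2: all four sign variants of a point of `K` lie in `K` (`str (-1) 1` by hypothesis,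
`str 1 (-1) z = - str (-1) 1 z`, `str (-1) (-1) z = - z`, `str 1 1 z = z`); choose the signs of the
two inner products. -/
theorem exists_variant {K : Set (ι ⊕ κ → ℝ)} (hK : IsSymBody K)
    (hflip : ∀ z ∈ K, str (-1) 1 z ∈ K) {z : ι ⊕ κ → ℝ} (hz : z ∈ K) (u : ι ⊕ κ → ℝ) :
    ∃ z' ∈ K, ip (fun i => z' (Sum.inl i)) (fun i => u (Sum.inl i))
        = |ip (fun i => z (Sum.inl i)) (fun i => u (Sum.inl i))| ∧
      ip (fun j => z' (Sum.inr j)) (fun j => u (Sum.inr j))
        = |ip (fun j => z (Sum.inr j)) (fun j => u (Sum.inr j))| := by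
  have hl : ∀ (a b : ℝ) (w : ι ⊕ κ → ℝ), ip (fun i => str a b w (Sum.inl i)) (fun i => u (Sum.inl i))
      = a * ip (fun i => w (Sum.inl i)) (fun i => u (Sum.inl i)) := by
    intro a b w
    simp only [ip, str, Sum.elim_inl, Finset.mul_sum, mul_assoc]
  have hr : ∀ (a b : ℝ) (w : ι ⊕ κ → ℝ), ip (fun j => str a b w (Sum.inr j)) (fun j => u (Sum.inr j))
      = b * ip (fun j => w (Sum.inr j)) (fun j => u (Sum.inr j)) := by
    intro a b w
    simp only [ip, str, Sum.elim_inr, Finset.mul_sum, mul_assoc]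
  have m1 : str (-1) 1 z ∈ K := hflip z hz
  have m2 : str 1 (-1) z ∈ K := by
    have := hK.symm _ m1
    convert this using 1
    funext i
    cases i <;> simp [str]
  have m3 : str (-1) (-1) z ∈ K := by
    have := hK.symm _ hz
    convert this using 1
    funext i
    cases i <;> simp [str]
  have m0 : str 1 1 z ∈ K := by
    convert hz using 1
    funext i
    cases i <;> simp [str]
  rcases le_total 0 (ip (fun i => z (Sum.inl i)) (fun i => u (Sum.inl i))) with h1 | h1 <;>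
  rcases le_total 0 (ip (fun j => z (Sum.inr j)) (fun j => u (Sum.inr j))) with h2 | h2
  · exact ⟨_, m0, by rw [hl, abs_of_nonneg h1, one_mul], by rw [hr, abs_of_nonneg h2, one_mul]⟩
  · exact ⟨_, m2, by rw [hl, abs_of_nonneg h1, one_mul], by rw [hr, abs_of_nonpos h2]; ring⟩
  · exact ⟨_, m1, by rw [hl, abs_of_nonpos h1]; ring, by rw [hr, abs_of_nonneg h2, one_mul]⟩
  · exact ⟨_, m3, by rw [hl, abs_of_nonpos h1]; ring, by rw [hr, abs_of_nonpos h2]; ring⟩

theorem continuous_str (s t : ℝ) : Continuous (str s t : (ι ⊕ κ → ℝ) → (ι ⊕ κ → ℝ)) := by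
  refine continuous_pi fun i => ?_
  cases i with
  | inl i => simp only [str, Sum.elim_inl]; fun_prop
  | inr j => simp only [str, Sum.elim_inr]; fun_prop

/-- T3: the image of a compact set under the continuous map `str s t`. -/
theorem isCompact_str {K : Set (ι ⊕ κ → ℝ)} (hK : IsCompact K) (s t : ℝ) :
    IsCompact (str s t '' K) :=
  hK.image (continuous_str s t)

theorem rpow_split {c s lam : ℝ} (hc : 0 ≤ c) (hs : 0 < s) (h0 : 0 ≤ lam) (h1 : lam ≤ 1) :
    s ^ lam * c = c ^ (1 - lam) * (s * c) ^ lam := by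
  rcases eq_or_lt_of_le hc with rfl | hcp
  · rcases eq_or_lt_of_le h0 with rfl | hl
    · simp
    · simp [Real.zero_rpow hl.ne']
  · rw [Real.mul_rpow hs.le hc]
    have : c ^ (1 - lam) * c ^ lam = c := by
      rw [← Real.rpow_add hcp]; simp
    calc s ^ lam * c = s ^ lam * (c ^ (1 - lam) * c ^ lam) := by rw [this]
      _ = _ := by ring

/-- T4: the inclusion.  For `z ∈ K` put `c₁ = |⟨z₁,u₁⟩|`, `c₂ = |⟨z₂,u₂⟩|`.  By `ip_str`,
`⟨T^λ z,u⟩ ≤ s^λ c₁ + t^λ c₂ = c₁^(1-λ) (s c₁)^λ + c₂^(1-λ) (t c₂)^λ`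
(`Real.mul_rpow`, `Real.rpow_add'` or the cases `c = 0`, `c > 0`)
`≤ (c₁+c₂)^(1-λ) (s c₁ + t c₂)^λ` (`holder2`), and with `z'` from `exists_variant`:
`c₁ + c₂ = ⟨z',u⟩ ≤ supp K u`, `s c₁ + t c₂ = ⟨T z',u⟩ ≤ supp (T K) u` (`ip_le_supp`,
`isCompact_str`); conclude with `Real.rpow_le_rpow`. -/
theorem str_subset_logComb {K : Set (ι ⊕ κ → ℝ)} (hK : IsSymBody K)
    (hflip : ∀ z ∈ K, str (-1) 1 z ∈ K) {s t lam : ℝ} (hs : 0 < s) (ht : 0 < t) (h0 : 0 ≤ lam)
    (h1 : lam ≤ 1) :
    str (s ^ lam) (t ^ lam) '' K ⊆ logComb lam K (str s t '' K) := by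
  rintro _ ⟨z, hz, rfl⟩ u -
  obtain ⟨z', hz', e1, e2⟩ := exists_variant hK hflip hz u
  set p₁ := ip (fun i => z (Sum.inl i)) (fun i => u (Sum.inl i)) with hp₁
  set p₂ := ip (fun j => z (Sum.inr j)) (fun j => u (Sum.inr j)) with hp₂
  have hsl : 0 < s ^ lam := Real.rpow_pos_of_pos hs _
  have htl : 0 < t ^ lam := Real.rpow_pos_of_pos ht _
  have b1 : |p₁| + |p₂| ≤ supp K u := by
    have := ip_le_supp hK.compact u hz'
    have e : ip z' u = |p₁| + |p₂| := by
      have h := ip_str 1 1 z' u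
      have hid : str 1 1 z' = z' := by
        funext i
        cases i <;> simp [str]
      rw [hid, e1, e2] at h
      linarith
    linarith
  have b2 : s * |p₁| + t * |p₂| ≤ supp (str s t '' K) u := by
    have := ip_le_supp (isCompact_str hK.compact s t) u (Set.mem_image_of_mem _ hz')
    rw [ip_str, e1, e2] at this
    exact this
  rw [ip_str]
  calc s ^ lam * p₁ + t ^ lam * p₂ ≤ s ^ lam * |p₁| + t ^ lam * |p₂| :=
        add_le_add (mul_le_mul_of_nonneg_left (le_abs_self _) hsl.le)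
          (mul_le_mul_of_nonneg_left (le_abs_self _) htl.le)
    _ = |p₁| ^ (1 - lam) * (s * |p₁|) ^ lam + |p₂| ^ (1 - lam) * (t * |p₂|) ^ lam := by
        rw [rpow_split (abs_nonneg p₁) hs h0 h1, rpow_split (abs_nonneg p₂) ht h0 h1]
    _ ≤ (|p₁| + |p₂|) ^ (1 - lam) * (s * |p₁| + t * |p₂|) ^ lam :=
        holder2 (abs_nonneg _) (abs_nonneg _) (by positivity) (by positivity) h0 h1
    _ ≤ supp K u ^ (1 - lam) * supp (str s t '' K) u ^ lam := by
        apply mul_le_mul
        · exact Real.rpow_le_rpow (by positivity) b1 (by linarith)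
        · exact Real.rpow_le_rpow (by positivity) b2 h0
        · positivity
        · exact Real.rpow_nonneg (le_trans (by positivity) b1) _

/-- T5: `str s t = Matrix.toLin' (Matrix.diagonal (Sum.elim (fun _ => s) (fun _ => t)))`;
`Measure.addHaar_image_linearMap`, `LinearMap.det_toLin'`, `Matrix.det_diagonal`,
`Fintype.prod_sum_type`, `Finset.prod_const`. -/
theorem vol_str (K : Set (ι ⊕ κ → ℝ)) {s t : ℝ} (hs : 0 < s) (ht : 0 < t) :
    P237.vol (str s t '' K) = s ^ Fintype.card ι * t ^ Fintype.card κ * P237.vol K := by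
  classical
  have e : (str s t : (ι ⊕ κ → ℝ) → ι ⊕ κ → ℝ)
      = Matrix.toLin' (Matrix.diagonal (Sum.elim (fun _ : ι => s) (fun _ : κ => t))) := by
    funext z
    funext k
    rw [Matrix.toLin'_apply, Matrix.mulVec_diagonal]
    cases k <;> simp [str]
  unfold P237.vol
  rw [e, Measure.addHaar_image_linearMap, LinearMap.det_toLin', Matrix.det_diagonal,
    Fintype.prod_sum_type]
  simp only [Sum.elim_inl, Sum.elim_inr, Finset.prod_const, Finset.card_univ]
  rw [ENNReal.toReal_mul, ENNReal.toReal_ofReal (abs_nonneg _), abs_of_pos (by positivity)]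

/-- T6: `str s t '' K` is again an origin-symmetric convex body (linear image; for the interior:
`str s t` is a homeomorphism with inverse `str s⁻¹ t⁻¹`, or: it is an open map). -/
theorem isSymBody_str {K : Set (ι ⊕ κ → ℝ)} (hK : IsSymBody K) {s t : ℝ} (hs : 0 < s)
    (ht : 0 < t) : IsSymBody (str s t '' K) := by
  have hc : ∀ a b : ℝ, Continuous (str a b : (ι ⊕ κ → ℝ) → ι ⊕ κ → ℝ) := by
    intro a b
    refine continuous_pi ?_
    intro k
    cases k <;> simp only [str, Sum.elim_inl, Sum.elim_inr] <;> fun_prop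
  have hinv : ∀ z : ι ⊕ κ → ℝ, str s t (str s⁻¹ t⁻¹ z) = z := by
    intro z
    funext k
    cases k
    · simp only [str, Sum.elim_inl]
      field_simp
    · simp only [str, Sum.elim_inr]
      field_simp
  have hinv' : ∀ z : ι ⊕ κ → ℝ, str s⁻¹ t⁻¹ (str s t z) = z := by
    intro z
    funext k
    cases k
    · simp only [str, Sum.elim_inl]
      field_simp
    · simp only [str, Sum.elim_inr]
      field_simp
  have himg : str s t '' K = str s⁻¹ t⁻¹ ⁻¹' K := by
    ext z
    constructor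
    · rintro ⟨w, hw, rfl⟩
      simpa [hinv'] using hw
    · intro hz
      exact ⟨_, hz, hinv z⟩
  refine ⟨hK.compact.image (hc s t), ?_, ?_, ?_⟩
  · rintro _ ⟨x, hx, rfl⟩ _ ⟨y, hy, rfl⟩ a b ha hb hab
    refine ⟨a • x + b • y, hK.convex hx hy ha hb hab, ?_⟩
    funext k
    cases k <;> simp [str] <;> ring
  · obtain ⟨x, hx⟩ := hK.interior
    refine ⟨str s t x, ?_⟩
    rw [himg]
    have := preimage_interior_subset_interior_preimage (t := K) (hc s⁻¹ t⁻¹)
    apply this
    simpa [hinv'] using hx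
  · rintro _ ⟨x, hx, rfl⟩
    refine ⟨-x, hK.symm x hx, ?_⟩
    funext k
    cases k <;> simp [str]

/-- T7: assembly.  `vol (T^λ K) = (s^λ)^n (t^λ)^m vol K = (vol K)^(1-λ) (s^n t^m vol K)^λ`
(`Real.mul_rpow`, `Real.rpow_natCast`, `Real.rpow_mul`, `Real.rpow_add'`), monotonicity of the
volume with `volume_logComb_lt_top`. -/
theorem lbm_str {K : Set (ι ⊕ κ → ℝ)} (hK : IsSymBody K)
    (hflip : ∀ z ∈ K, str (-1) 1 z ∈ K) {s t lam : ℝ} (hs : 0 < s) (ht : 0 < t) (h0 : 0 ≤ lam)
    (h1 : lam ≤ 1) : LBM lam K (str s t '' K) := by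
  unfold LBM
  have hsub := str_subset_logComb hK hflip hs ht h0 h1
  have hle : P237.vol (str (s ^ lam) (t ^ lam) '' K) ≤ P237.vol (logComb lam K (str s t '' K)) :=
    ENNReal.toReal_mono (volume_logComb_lt_top _ _ _).ne (measure_mono hsub)
  refine le_trans (le_of_eq ?_) hle
  rw [vol_str K hs ht, vol_str K (Real.rpow_pos_of_pos hs _) (Real.rpow_pos_of_pos ht _)]
  have hv : 0 ≤ P237.vol K := ENNReal.toReal_nonneg
  have hsn : 0 ≤ s ^ Fintype.card ι := by positivity
  have htn : 0 ≤ t ^ Fintype.card κ := by positivity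
  rw [Real.mul_rpow (by positivity) hv, Real.mul_rpow hsn htn]
  have e1 : (s ^ Fintype.card ι) ^ lam = (s ^ lam) ^ Fintype.card ι := by
    rw [← Real.rpow_natCast, ← Real.rpow_natCast, ← Real.rpow_mul hs.le, ← Real.rpow_mul hs.le,
      mul_comm]
  have e2 : (t ^ Fintype.card κ) ^ lam = (t ^ lam) ^ Fintype.card κ := by
    rw [← Real.rpow_natCast, ← Real.rpow_natCast, ← Real.rpow_mul ht.le, ← Real.rpow_mul ht.le,
      mul_comm]
  have e3 : P237.vol K ^ (1 - lam) * P237.vol K ^ lam = P237.vol K := by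
    rcases eq_or_lt_of_le hv with h | h
    · rw [← h]
      rcases eq_or_lt_of_le h0 with rfl | hl
      · simp
      · simp [Real.zero_rpow hl.ne']
    · rw [← Real.rpow_add h]; simp
  rw [e1, e2]
  calc P237.vol K ^ (1 - lam) * ((s ^ lam) ^ Fintype.card ι * (t ^ lam) ^ Fintype.card κ
        * P237.vol K ^ lam)
      = (s ^ lam) ^ Fintype.card ι * (t ^ lam) ^ Fintype.card κ
        * (P237.vol K ^ (1 - lam) * P237.vol K ^ lam) := by ring
    _ = _ := by rw [e3]

end P227
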