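import Vale.Agent.Lib.P227.Defs

/-! # P227 units S1-S6: support functions -/

namespace P227
open MeasureTheory
open scoped Pointwise
variable {ι κ : Type*} [Fintype ι] [Fintype κ]

theorem continuous_ip (u : ι → ℝ) : Continuous (fun x : ι → ℝ => ip x u) := by
  unfold ip
  fun_prop

/-- S1 -/
theorem bddAbove_ip {K : Set (ι → ℝ)} (hK : IsCompact K) (u : ι → ℝ) :
    BddAbove ((fun x => ip x u) '' K) :=
  (hK.image (continuous_ip u)).bddAbove

/-- S1b -/
theorem ip_le_supp {K : Set (ι → ℝ)} (hK : IsCompact K) (u : ι → ℝ) {x : ι → ℝ} (hx : x ∈ K) :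
    ip x u ≤ supp K u :=
  le_csSup (bddAbove_ip hK u) ⟨x, hx, rfl⟩

/-- S2: a symmetric convex nonempty set contains the origin -/
theorem zero_mem {K : Set (ι → ℝ)} (h : IsSymBody K) : (0 : ι → ℝ) ∈ K := by
  obtain ⟨x, hx⟩ := h.interior
  have hxK : x ∈ K := interior_subset hx
  have := h.convex hxK (h.symm x hxK) (by norm_num : (0 : ℝ) ≤ 1 / 2)
    (by norm_num : (0 : ℝ) ≤ 1 / 2) (by norm_num)
  simpa using this

/-- S3 -/
theorem supp_nonneg {K : Set (ι → ℝ)} (h : IsSymBody K) (u : ι → ℝ) : 0 ≤ supp K u := by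
  have := ip_le_supp h.compact u (zero_mem h)
  simpa [ip] using this

/-- S4: positive homogeneity (`Real.sSup_smul_of_nonneg` or directly) -/
theorem supp_smul {K : Set (ι → ℝ)} (hK : IsCompact K) (hne : K.Nonempty) {c : ℝ} (hc : 0 ≤ c)
    (u : ι → ℝ) : supp K (c • u) = c * supp K u := by
  have e : (fun x => ip x (c • u)) '' K = c • ((fun x => ip x u) '' K) := by
    ext r
    simp only [Set.mem_image, Set.mem_smul_set]
    constructor
    · rintro ⟨x, hx, rfl⟩
      refine ⟨ip x u, ⟨x, hx, rfl⟩, ?_⟩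
      simp only [ip, Pi.smul_apply, smul_eq_mul, Finset.mul_sum]
      exact Finset.sum_congr rfl fun i _ => by ring
    · rintro ⟨_, ⟨x, hx, rfl⟩, rfl⟩
      refine ⟨x, hx, ?_⟩
      simp only [ip, Pi.smul_apply, smul_eq_mul, Finset.mul_sum]
      exact Finset.sum_congr rfl fun i _ => by ring
  unfold supp
  rw [e, Real.sSup_smul_of_nonneg hc, smul_eq_mul]

/-- S5: the support function of a product is the sum of the support functions -/
theorem supp_prod {K : Set (ι → ℝ)} {L : Set (κ → ℝ)} (hK : IsCompact K) (hL : IsCompact L)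
    (hKn : K.Nonempty) (hLn : L.Nonempty) (z : ι ⊕ κ → ℝ) :
    supp (P237.prod K L) z
      = supp K (fun i => z (Sum.inl i)) + supp L (fun j => z (Sum.inr j)) := by
  have hsplit : ∀ w : ι ⊕ κ → ℝ, ip w z
      = ip (fun i => w (Sum.inl i)) (fun i => z (Sum.inl i))
        + ip (fun j => w (Sum.inr j)) (fun j => z (Sum.inr j)) := by
    intro w
    unfold ip
    rw [Fintype.sum_sum_type]
  obtain ⟨x0, hx0⟩ := hKn
  obtain ⟨y0, hy0⟩ := hLn
  apply le_antisymm
  · apply csSup_le
    · exact ⟨_, Sum.elim x0 y0, ⟨by simpa using hx0, by simpa using hy0⟩, rfl⟩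
    · rintro _ ⟨w, ⟨hw1, hw2⟩, rfl⟩
      simp only
      rw [hsplit]
      exact add_le_add (ip_le_supp hK _ hw1) (ip_le_supp hL _ hw2)
  · have hb : BddAbove ((fun x => ip x z) '' P237.prod K L) := by
      refine ⟨supp K (fun i => z (Sum.inl i)) + supp L (fun j => z (Sum.inr j)), ?_⟩
      rintro _ ⟨w, ⟨hw1, hw2⟩, rfl⟩
      simp only
      rw [hsplit]
      exact add_le_add (ip_le_supp hK _ hw1) (ip_le_supp hL _ hw2)
    have key : ∀ x ∈ K, ∀ y ∈ L, ip x (fun i => z (Sum.inl i)) + ip y (fun j => z (Sum.inr j))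
        ≤ supp (P237.prod K L) z := by
      intro x hx y hy
      have h3 : ip (Sum.elim x y) z ≤ supp (P237.prod K L) z :=
        le_csSup hb ⟨Sum.elim x y, ⟨by simpa using hx, by simpa using hy⟩, rfl⟩
      rw [hsplit] at h3
      exact h3
    have h1 : supp K (fun i => z (Sum.inl i))
        ≤ supp (P237.prod K L) z - supp L (fun j => z (Sum.inr j)) := by
      apply csSup_le (Set.Nonempty.image _ ⟨x0, hx0⟩)
      rintro _ ⟨x, hx, rfl⟩
      simp only
      have h2 : supp L (fun j => z (Sum.inr j))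
          ≤ supp (P237.prod K L) z - ip x (fun i => z (Sum.inl i)) := by
        apply csSup_le (Set.Nonempty.image _ ⟨y0, hy0⟩)
        rintro _ ⟨y, hy, rfl⟩
        simp only
        have := key x hx y hy
        linarith
      linarith
    linarith

/-- S6: the defining inequality of `logComb` holds for all `u`, not only for unit vectors
(scale `u = r • û`, `r = sqrt (∑ u i ^ 2)`; `supp_smul`, `Real.mul_rpow`,
`r ^ (1 - lam) * r ^ lam = r`; the case `u = 0` is `ip x 0 = 0` and `supp_nonneg`). -/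
theorem logComb_all {K L : Set (ι → ℝ)} (hK : IsSymBody K) (hL : IsSymBody L) {lam : ℝ}
    {x : ι → ℝ} (hx : x ∈ logComb lam K L) (u : ι → ℝ) :
    ip x u ≤ supp K u ^ (1 - lam) * supp L u ^ lam := by
  by_cases hu : u = 0
  · subst hu
    have : ip x (0 : ι → ℝ) = 0 := by simp [ip]
    rw [this]
    exact mul_nonneg (Real.rpow_nonneg (supp_nonneg hK _) _) (Real.rpow_nonneg (supp_nonneg hL _) _)
  · set s : ℝ := ∑ i, u i ^ 2 with hs
    have hs0 : 0 ≤ s := Finset.sum_nonneg (fun i _ => sq_nonneg _)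
    have hspos : 0 < s := by
      rcases hs0.lt_or_eq with h | h
      · exact h
      · exfalso
        apply hu
        have := (Finset.sum_eq_zero_iff_of_nonneg (fun i _ => sq_nonneg (u i))).1 h.symm
        funext i
        have := this i (Finset.mem_univ i)
        simpa using this
    set r : ℝ := Real.sqrt s with hr
    have hrpos : 0 < r := Real.sqrt_pos.2 hspos
    have hr2 : r ^ 2 = s := Real.sq_sqrt hs0
    set v : ι → ℝ := r⁻¹ • u with hv
    have hv1 : ∑ i, v i ^ 2 = 1 := by
      have : ∀ i, v i ^ 2 = (r ^ 2)⁻¹ * u i ^ 2 := by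
        intro i
        simp only [hv, Pi.smul_apply, smul_eq_mul]
        rw [mul_pow, inv_pow]
      simp only [this]
      rw [← Finset.mul_sum, hr2, ← hs]
      exact inv_mul_cancel₀ hspos.ne'
    have huv : u = r • v := by
      rw [hv, smul_smul, mul_inv_cancel₀ hrpos.ne', one_smul]
    have h1 := hx v hv1
    have hip : ip x u = r * ip x v := by
      rw [huv]
      unfold ip
      rw [Finset.mul_sum]
      apply Finset.sum_congr rfl
      intro i _
      simp only [Pi.smul_apply, smul_eq_mul]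
      ring
    have hKne : K.Nonempty := ⟨0, zero_mem hK⟩
    have hLne : L.Nonempty := ⟨0, zero_mem hL⟩
    rw [hip]
    conv_rhs => rw [huv]
    rw [supp_smul hK.compact hKne hrpos.le, supp_smul hL.compact hLne hrpos.le,
      Real.mul_rpow hrpos.le (supp_nonneg hK _), Real.mul_rpow hrpos.le (supp_nonneg hL _)]
    have hrr : r ^ (1 - lam) * r ^ lam = r := by
      rw [← Real.rpow_add hrpos]
      simp
    calc r * ip x v ≤ r * (supp K v ^ (1 - lam) * supp L v ^ lam) :=
          mul_le_mul_of_nonneg_left h1 hrpos.le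
      _ = (r ^ (1 - lam) * r ^ lam) * (supp K v ^ (1 - lam) * supp L v ^ lam) := by rw [hrr]
      _ = _ := by ring

end P227
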